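import Vale.Agent.P125.Defs
import Vale.Agent.P125.Smooth
import Vale.Agent.P125.Main

namespace Vale.Agent.Results.P125.Superreflexive

open Vale.Agent.P125 Filter Topology

/-- Every real Banach space with Markov type `p` for some `p > 1` admits an equivalent uniformly
smooth norm. -/
theorem result (X : Type*) [NormedAddCommGroup X] [NormedSpace ℝ X] [CompleteSpace X]
    (p : ℝ) (hp : 1 < p) (hX : HasMarkovType X p) :
    ∃ N : Seminorm ℝ X,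
      (∃ a b : ℝ, 0 < a ∧ 0 < b ∧ ∀ x, a * ‖x‖ ≤ N x ∧ N x ≤ b * ‖x‖) ∧
      Tendsto (fun τ : ℝ => smoothnessModulus N τ / τ) (𝓝[>] 0) (𝓝 0) ∧
      ∀ ε : ℝ, 0 < ε → ∃ s : ℝ, 0 < s ∧ ∀ τ : ℝ, 0 < τ → τ < s → ∀ x y : X, N x = 1 → N y = 1 →
        (N (x + τ • y) + N (x - τ • y)) / 2 - 1 ≤ ε * τ := by
  obtain ⟨K, hK, hM⟩ := hX
  have hA : ∀ η : ℝ, 0 < η → ∃ M : ℕ, ∀ m ≥ M, Tr.Thin X η m := by
    by_contra hA
    obtain ⟨θ, hθ, Ψ, hΨ⟩ := good_of_not_thin (C := K ^ p) hp.le hM hA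
    exact not_good hΨ hp (by positivity) hθ
  obtain ⟨N, N1, N2, N3⟩ := smooth_of_thin hA
  exact ⟨N, ⟨1, 36, one_pos, by norm_num, fun x => ⟨by simpa using N1 x, N2 x⟩⟩,
    tendsto_modulus N N3, N3⟩

end Vale.Agent.Results.P125.Superreflexive
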